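import Mathlib
import Vale.Agent.H91.P171.PairCount
import Vale.Agent.H74.P171.ShiftCount

/-!
# P171 moonshot, LP part: grids of half-open cubes (co-architect helper79)

Cells of side `l` (a natural number) of the grid with integer offset `a`:
`cell l a v = a + l v + [0,l)^3`.  `sameCell l a p q` says that `p` and `q` lie in one cell.
All statements are about points of `E3` only (no measures, no potentials).
-/

open Classical
open scoped BigOperators

namespace Vale.Agent.H79.LP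

abbrev E3 := EuclideanSpace ℝ (Fin 3)

/-- index of the cell of side `l` of the grid with offset `a` that contains `p` -/
noncomputable def cellIdx (l : ℕ) (a : Fin 3 → ℤ) (p : E3) : Fin 3 → ℤ :=
  fun i => ⌊(p i - (a i : ℝ)) / (l : ℝ)⌋

/-- p and q lie in the same cell of the grid (l, a) -/
def sameCell (l : ℕ) (a : Fin 3 → ℤ) (p q : E3) : Prop := cellIdx l a p = cellIdx l a q

/-- the cell with index `v`, i.e. `a + l v + [0,l)^3` -/
def cell (l : ℕ) (a v : Fin 3 → ℤ) : Set E3 := {p | cellIdx l a p = v}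

/-- the integer offset attached to a shift `a : Fin 3 → Fin l` -/
def shift (l : ℕ) (a : Fin 3 → Fin l) : Fin 3 → ℤ := fun i => ((a i : ℕ) : ℤ)

/-- the closed box `[0,L]^3` -/
def box (L : ℝ) : Set E3 := {p | ∀ i, 0 ≤ p i ∧ p i ≤ L}

/-- the finite set of cell indices `{-1, .., K}^3` -/
noncomputable def idxSet (K : ℕ) : Finset (Fin 3 → ℤ) :=
  Fintype.piFinset (fun _ : Fin 3 => Finset.Icc (-1 : ℤ) (K : ℤ))

/-- the corner `a + l v` of the cell `cell l a v`, as a point of `E3` -/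
noncomputable def corner (l : ℕ) (a v : Fin 3 → ℤ) : E3 :=
  WithLp.toLp 2 (fun i => ((a i : ℝ) + (l : ℝ) * (v i : ℝ)))

/-- number of ordered pairs (i, j) (i = j allowed) of particles in a common cell; this is
the sum over the cells of the squares of the occupation numbers -/
noncomputable def sameCount (l : ℕ) (a : Fin 3 → ℤ) {N : ℕ} (x : Fin N → E3) : ℕ :=
  (Finset.univ.filter (fun p : Fin N × Fin N => sameCell l a (x p.1) (x p.2))).card

/-- ROW C1 (shift count, (H1) of the plan).  If all coordinates of `p` and `q` differ by at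
most r and r + 1 < l, then p and q share a cell for at least (l - r - 1)^3 of the
`l^3` integer shifts.  (Per coordinate: the shifts `a` that separate are the residues mod `l`
of the integers in the half-open interval between the two coordinates, at most `r + 1`.) -/
lemma shift_count (l r : ℕ) (hl : r + 1 < l) (p q : E3) (h : ∀ i, |p i - q i| ≤ (r : ℝ)) :
    (l - r - 1) ^ 3 ≤
      (Finset.univ.filter (fun a : Fin 3 → Fin l => sameCell l (shift l a) p q)).card := by
  have hl0 : 0 < l := by omega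
  have hlR : (0 : ℝ) < (l : ℝ) := by exact_mod_cast hl0
  have hR : (r : ℝ) / (l : ℝ) + 1 / (l : ℝ) ≤ 1 := by
    rw [← add_div, div_le_one hlR]
    have : r + 1 ≤ l := hl.le
    exact_mod_cast this
  have key := Vale.Agent.H74.P171.shift_count_three (l : ℝ) hlR l hl0 (fun j => p j) (fun j => q j)
    (r : ℝ) h hR
  have hset : (Finset.univ.filter (fun a : Fin 3 → Fin l => sameCell l (shift l a) p q)) =
      ((Finset.univ : Finset (Fin 3 → Fin l)).filter
        (fun a : Fin 3 → Fin l => ∀ j, ⌊(p j - (a j : ℕ) * (l : ℝ) / (l : ℕ)) / (l : ℝ)⌋ =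
          ⌊(q j - (a j : ℕ) * (l : ℝ) / (l : ℕ)) / (l : ℝ)⌋)) := by
    ext a
    simp only [Finset.mem_filter, Finset.mem_univ, true_and, sameCell, cellIdx, shift,
      funext_iff]
    have e : ∀ j : Fin 3, ((a j : ℕ) : ℝ) * (l : ℝ) / ((l : ℕ) : ℝ) = (((a j : ℕ) : ℤ) : ℝ) := by
      intro j
      rw [mul_div_assoc, div_self hlR.ne', mul_one]
      norm_cast
    constructor
    · intro hh j
      rw [e j]
      exact hh j
    · intro hh j
      have := hh j
      rw [e j] at this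
      exact this
  rw [hset]
  have hcast : (((l - r - 1 : ℕ) ^ 3 : ℕ) : ℝ) = (l : ℝ) ^ 3 * (1 - (r : ℝ) / (l : ℝ) - 1 / (l : ℝ)) ^ 3 := by
    have h1 : ((l - r - 1 : ℕ) : ℝ) = (l : ℝ) - r - 1 := by
      rw [Nat.cast_sub (by omega), Nat.cast_sub (by omega)]
      simp
    rw [Nat.cast_pow, h1, ← mul_pow]
    congr 1
    field_simp
  exact Nat.cast_le.mp (hcast.le.trans key)

lemma cells_near_coord (p q : E3) (i : Fin 3) : |p i - q i| ≤ dist p q := by
  have h := EuclideanSpace.norm_eq (p - q)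
  rw [dist_eq_norm, h]
  have h2 : (p i - q i) ^ 2 ≤ ∑ j : Fin 3, ‖(p - q) j‖ ^ 2 := by
    have := Finset.single_le_sum (f := fun j : Fin 3 => ‖(p - q) j‖ ^ 2)
      (fun j _ => sq_nonneg _) (Finset.mem_univ i)
    simpa [Real.norm_eq_abs, sq_abs] using this
  calc |p i - q i| = Real.sqrt ((p i - q i) ^ 2) := (Real.sqrt_sq_eq_abs _).symm
    _ ≤ Real.sqrt (∑ j : Fin 3, ‖(p - q) j‖ ^ 2) := Real.sqrt_le_sqrt h2

lemma cells_near_num (l : ℕ) (hl : 0 < l) (R : ℝ) (hR : 4 * (l : ℝ) ≤ R) :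
    (((2 * ⌈R / (l : ℝ)⌉.toNat + 1) ^ 3 : ℕ) : ℝ) ≤ 21 * R ^ 3 / (l : ℝ) ^ 3 := by
  have hl' : (0 : ℝ) < (l : ℝ) := by exact_mod_cast hl
  set q : ℝ := R / (l : ℝ) with hq
  have hq4 : 4 ≤ q := by
    rw [hq, le_div_iff₀ hl']
    exact hR
  have hc0 : (0 : ℤ) ≤ ⌈q⌉ := Int.ceil_nonneg (by linarith)
  have hc1 : ((⌈q⌉ : ℤ) : ℝ) < q + 1 := Int.ceil_lt_add_one q
  have hk : ((⌈q⌉.toNat : ℕ) : ℝ) = ((⌈q⌉ : ℤ) : ℝ) := by
    have : ((⌈q⌉.toNat : ℕ) : ℤ) = ⌈q⌉ := Int.toNat_of_nonneg hc0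
    exact_mod_cast this
  have hk0 : (0 : ℝ) ≤ ((⌈q⌉.toNat : ℕ) : ℝ) := Nat.cast_nonneg _
  have h1 : (2 * ((⌈q⌉.toNat : ℕ) : ℝ) + 1) ≤ (11 / 4) * q := by
    rw [hk]; linarith
  have h2 : (2 * ((⌈q⌉.toNat : ℕ) : ℝ) + 1) ^ 3 ≤ ((11 / 4) * q) ^ 3 :=
    pow_le_pow_left₀ (by positivity) h1 3
  have h3 : 21 * R ^ 3 / (l : ℝ) ^ 3 = 21 * q ^ 3 := by
    rw [hq, div_pow]; ring
  rw [h3]
  push_cast
  have hq3 : 0 ≤ q ^ 3 := by positivity
  nlinarith [h2, hq3]

/-- ROW C2 (near pairs, (H2) for the long bumps).  Ordered pairs of distinct particles at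
distance `< R`, `R ≥ 4 l`: at most `21 R^3 / l^3` times the sum of squares of the occupation
numbers.  (Cell indices of a near pair differ by at most `ρ = ⌈R/l⌉ ≤ R/l + 1` per coordinate;
(2ρ+1)^3 index differences; for each difference v the number of pairs with that difference
is at most sameCount (n n' ≤ (n^2 + n'^2)/2); (2R/l + 3)^3 ≤ (2.75)^3 R^3/l^3 ≤ 21 R^3/l^3.
Black box on main: `Vale/Agent/H91/P171/PairCount.lean`.) -/
lemma near_count (l : ℕ) (hl : 0 < l) (a : Fin 3 → ℤ) (R : ℝ) (hR : 4 * (l : ℝ) ≤ R)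
    {N : ℕ} (x : Fin N → E3) :
    ((Finset.univ.filter
        (fun p : Fin N × Fin N => p.1 ≠ p.2 ∧ dist (x p.1) (x p.2) < R)).card : ℝ)
      ≤ 21 * R ^ 3 / (l : ℝ) ^ 3 * (sameCount l a x : ℝ) := by
  have hl' : (0 : ℝ) < (l : ℝ) := by exact_mod_cast hl
  set c : Fin N → (Fin 3 → ℤ) := fun i => cellIdx l a (x i) with hc
  set k : ℕ := ⌈R / (l : ℝ)⌉.toNat with hk
  have hq4 : 4 ≤ R / (l : ℝ) := by
    rw [le_div_iff₀ hl']
    exact hR
  have hc0 : (0 : ℤ) ≤ ⌈R / (l : ℝ)⌉ := Int.ceil_nonneg (by linarith)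
  have hkc : ((k : ℕ) : ℤ) = ⌈R / (l : ℝ)⌉ := Int.toNat_of_nonneg hc0
  -- the near pairs have index difference in the box
  have hsub : (Finset.univ.filter
        (fun p : Fin N × Fin N => p.1 ≠ p.2 ∧ dist (x p.1) (x p.2) < R)) ⊆
      (Finset.univ.filter fun p : Fin N × Fin N =>
        c p.2 - c p.1 ∈ Vale.Agent.H91.P171.box3 k) := by
    intro p hp
    rw [Finset.mem_filter] at hp ⊢
    refine ⟨Finset.mem_univ _, ?_⟩
    rw [Vale.Agent.H91.P171.mem_box3]
    intro i
    have h1 : |x p.2 i - x p.1 i| < R :=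
      lt_of_le_of_lt (cells_near_coord (x p.2) (x p.1) i) (by rw [dist_comm]; exact hp.2.2)
    have h2 : |(x p.2 i - (a i : ℝ)) - (x p.1 i - (a i : ℝ))| < R := by
      have : (x p.2 i - (a i : ℝ)) - (x p.1 i - (a i : ℝ)) = x p.2 i - x p.1 i := by ring
      rw [this]; exact h1
    have h3 := Vale.Agent.H91.P171.floor_div_sub_le _ _ R (l : ℝ) hl' h2
    rw [hkc]
    exact h3
  have h1 : (Finset.univ.filter
        (fun p : Fin N × Fin N => p.1 ≠ p.2 ∧ dist (x p.1) (x p.2) < R)).card ≤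
      (Vale.Agent.H91.P171.box3 k).card * Vale.Agent.H91.P171.sameCell c :=
    le_trans (Finset.card_le_card hsub)
      (Vale.Agent.H91.P171.pairs_diff_mem_le c (Vale.Agent.H91.P171.box3 k))
  have h2 : Vale.Agent.H91.P171.sameCell c = sameCount l a x := by
    rw [Vale.Agent.H91.P171.sameCell_eq_card]
    unfold sameCount
    congr 1
    ext p
    simp only [Finset.mem_filter, Finset.mem_univ, true_and]
    unfold sameCell
    exact ⟨fun h => h.symm, fun h => h.symm⟩
  rw [h2, Vale.Agent.H91.P171.card_box3] at h1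
  have h3 : ((Finset.univ.filter
        (fun p : Fin N × Fin N => p.1 ≠ p.2 ∧ dist (x p.1) (x p.2) < R)).card : ℝ) ≤
      (((2 * k + 1) ^ 3 : ℕ) : ℝ) * (sameCount l a x : ℝ) := by
    exact_mod_cast h1
  refine le_trans h3 ?_
  exact mul_le_mul_of_nonneg_right (cells_near_num l hl R hR) (Nat.cast_nonneg _)

/-- ROW C3a -/
lemma measurableSet_cell (l : ℕ) (a v : Fin 3 → ℤ) : MeasurableSet (cell l a v) := by
  have hm : Measurable (cellIdx l a) := by
    rw [measurable_pi_iff]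
    intro i
    have h1 : Measurable (fun p : E3 => (p i - (a i : ℝ)) / (l : ℝ)) := by
      have h0 : Measurable (fun p : E3 => p i) := (EuclideanSpace.proj i).continuous.measurable
      exact (h0.sub_const _).div_const _
    exact Int.measurable_floor.comp h1
  exact hm (measurableSet_singleton v)

/-- ROW C3b -/
lemma sameCell_iff_exists_cell (l : ℕ) (a : Fin 3 → ℤ) (p q : E3) :
    sameCell l a p q ↔ ∃ v, p ∈ cell l a v ∧ q ∈ cell l a v := by
  constructor
  · intro h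
    exact ⟨cellIdx l a p, rfl, h.symm⟩
  · rintro ⟨v, hp, hq⟩
    exact hp.trans hq.symm

/-- ROW C3c -/
lemma cell_disjoint (l : ℕ) (a v v' : Fin 3 → ℤ) (h : v ≠ v') :
    Disjoint (cell l a v) (cell l a v') := by
  rw [Set.disjoint_left]
  intro p hp hp'
  exact h (hp.symm.trans hp')

/-- ROW C3d: the box [0, K l]^3 is covered by the (K+2)^3 cells with index in
`{-1..K}^3`, for every shift `a ∈ {0..l-1}^3`. -/
lemma box_subset_cells (l K : ℕ) (hl : 0 < l) (a : Fin 3 → Fin l) :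
    box ((K : ℝ) * (l : ℝ)) ⊆ ⋃ v ∈ idxSet K, cell l (shift l a) v := by
  intro p hp
  have hlR : (0 : ℝ) < (l : ℝ) := by exact_mod_cast hl
  refine Set.mem_iUnion₂.2 ⟨cellIdx l (shift l a) p, ?_, rfl⟩
  rw [idxSet, Fintype.mem_piFinset]
  intro i
  rw [Finset.mem_Icc]
  obtain ⟨h0, h1⟩ := hp i
  have ha0 : (0 : ℝ) ≤ ((shift l a i : ℤ) : ℝ) := by
    simp [shift]
  have ha1 : ((shift l a i : ℤ) : ℝ) + 1 ≤ (l : ℝ) := by
    have : (a i : ℕ) + 1 ≤ l := (a i).isLt
    have h' : (((a i : ℕ) + 1 : ℕ) : ℝ) ≤ (l : ℝ) := by exact_mod_cast this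
    simpa [shift] using h'
  constructor
  · rw [cellIdx, Int.le_floor, le_div_iff₀ hlR]
    push_cast
    linarith
  · have h2 : (p i - ((shift l a i : ℤ) : ℝ)) / (l : ℝ) ≤ (K : ℝ) := by
      rw [div_le_iff₀ hlR]
      linarith
    have h3 : ((⌊(p i - ((shift l a i : ℤ) : ℝ)) / (l : ℝ)⌋ : ℤ) : ℝ) ≤ ((K : ℤ) : ℝ) := by
      refine le_trans (Int.floor_le _) ?_
      simpa using h2
    exact Int.cast_le.mp h3

/-- ROW C3e -/
lemma card_idxSet (K : ℕ) : (idxSet K).card = (K + 2) ^ 3 := by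
  rw [idxSet, Fintype.card_piFinset, Finset.prod_const, Finset.card_univ, Fintype.card_fin,
    Int.card_Icc]
  congr 1

/-- ROW C3f: every cell is a translate of the cell `[0,l)^3 = cell l 0 0`. -/
lemma mem_cell_iff_sub_corner (l : ℕ) (hl : 0 < l) (a v : Fin 3 → ℤ) (p : E3) :
    p ∈ cell l a v ↔ p - corner l a v ∈ cell l 0 0 := by
  have hlR : (l : ℝ) ≠ 0 := by
    have : (0 : ℝ) < (l : ℝ) := by exact_mod_cast hl
    exact this.ne'
  have key : ∀ i : Fin 3, cellIdx l 0 (p - corner l a v) i = cellIdx l a p i - v i := by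
    intro i
    simp only [cellIdx, Pi.zero_apply, Int.cast_zero, sub_zero]
    have e : (p - corner l a v) i = p i - ((a i : ℝ) + (l : ℝ) * (v i : ℝ)) := by
      simp [corner]
    rw [e, ← Int.floor_sub_intCast]
    congr 1
    field_simp
    ring
  simp only [cell, Set.mem_ofPred_eq, funext_iff, key, Pi.zero_apply]
  constructor
  · intro h i
    rw [h i, sub_self]
  · intro h i
    exact sub_eq_zero.mp (h i)

/-- ROW C3g: the cell `[0,l)^3` lies in the closed box `[0,l]^3`. -/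
lemma cell_zero_subset_box (l : ℕ) (hl : 0 < l) : cell l 0 0 ⊆ box (l : ℝ) := by
  intro p hp i
  have hlR : (0 : ℝ) < (l : ℝ) := by exact_mod_cast hl
  have h := congrFun hp i
  simp only [cellIdx, Pi.zero_apply, Int.cast_zero, sub_zero] at h
  rw [Int.floor_eq_zero_iff] at h
  obtain ⟨h0, h1⟩ := h
  rw [le_div_iff₀ hlR, zero_mul] at h0
  rw [div_lt_one hlR] at h1
  exact ⟨h0, h1.le⟩

end Vale.Agent.H79.LP
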